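import Mathlib

/-!
# Elementary amenable groups
-/

namespace Vale.Agent.H53

universe u

/-- The class of elementary amenable groups (in a fixed universe): the smallest class of groups
which contains all finite groups and all abelian groups and is closed under subgroups
(more precisely: under passing to a group admitting an injective homomorphism into a member),
quotients (homomorphic images), group extensions and directed unions of subgroups. -/
inductive IsElementaryAmenable : ∀ (G : Type u) [Group G], Prop
  | of_finite (G : Type u) [Group G] [Finite G] : IsElementaryAmenable G
  | of_comm (G : Type u) [Group G] (h : ∀ a b : G, a * b = b * a) : IsElementaryAmenable G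
  | of_injective {G H : Type u} [Group G] [Group H] (f : G →* H) (hf : Function.Injective f) :
      IsElementaryAmenable H → IsElementaryAmenable G
  | of_surjective {G H : Type u} [Group G] [Group H] (f : G →* H) (hf : Function.Surjective f) :
      IsElementaryAmenable G → IsElementaryAmenable H
  | of_extension (G : Type u) [Group G] (N : Subgroup G) [N.Normal] :
      IsElementaryAmenable N → IsElementaryAmenable (G ⧸ N) → IsElementaryAmenable G
  | of_directed_union (G : Type u) [Group G] (ι : Type u) [Nonempty ι] (H : ι → Subgroup G)
      (hdir : Directed (· ≤ ·) H) (hcover : ∀ g : G, ∃ i, g ∈ H i) :
      (∀ i, IsElementaryAmenable (H i)) → IsElementaryAmenable G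

end Vale.Agent.H53
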