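import Vale.Agent.H53.EA.Simple

/-!
# Local embeddings of finitely presented simple groups
-/

namespace Vale.Agent.H53.EA

universe u

/-- A finitely presented simple group which is locally embeddable into a class of groups
embeds into a member of the class. -/
theorem exists_injective_hom_of_local {G : Type u} [Group G] [hfp : Group.IsFinitelyPresented G]
    [IsSimpleGroup G] (P : ∀ (A : Type u) [Group A], Prop)
    (hloc : ∀ E : Finset G, ∃ (A : Type u) (_ : Group A) (ψ : G → A), P A ∧
      Set.InjOn ψ (E : Set G) ∧ ∀ g ∈ E, ∀ h ∈ E, g * h ∈ E → ψ (g * h) = ψ g * ψ h) :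
    ∃ (A : Type u) (_ : Group A) (Ψ : G →* A), P A ∧ Function.Injective Ψ := by
  classical
  obtain ⟨n, φ, hφ, R, hRfin, hRker⟩ := hfp.out
  set m : ℕ := (hRfin.toFinset.sup (fun r => (FreeGroup.toWord r).length)) + 1 with hm_def
  have hm : ∀ r ∈ R, (FreeGroup.toWord r).length ≤ m := by
    intro r hr
    have := Finset.le_sup (f := fun r => (FreeGroup.toWord r).length)
      (hRfin.mem_toFinset.mpr hr)
    omega
  have hm1 : 1 ≤ m := by omega
  have hfinL : {L : List (Fin n × Bool) | L.length ≤ m}.Finite := List.finite_length_le _ _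
  set E : Finset G := hfinL.toFinset.image (fun L => φ (FreeGroup.mk L)) with hE_def
  have hE : ∀ L : List (Fin n × Bool), L.length ≤ m → φ (FreeGroup.mk L) ∈ E := by
    intro L hL
    rw [hE_def, Finset.mem_image]
    exact ⟨L, hfinL.mem_toFinset.mpr hL, rfl⟩
  obtain ⟨A, instA, ψ, hPA, hinj, hmul⟩ := hloc E
  have h1E : (1 : G) ∈ E := by
    have := hE [] (Nat.zero_le _)
    rwa [← FreeGroup.one_eq_mk, map_one] at this
  have hψ1 : ψ 1 = 1 := by
    have h2 := hmul 1 h1E 1 h1E (by rw [mul_one]; exact h1E)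
    rw [mul_one] at h2
    exact left_eq_mul.mp h2
  have hofE : ∀ i : Fin n, φ (FreeGroup.of i) ∈ E := fun i => hE [(i, true)] (by simpa using hm1)
  set Ψ₀ : FreeGroup (Fin n) →* A := FreeGroup.lift (fun i => ψ (φ (FreeGroup.of i))) with hΨ₀
  have key : ∀ L : List (Fin n × Bool), L.length ≤ m →
      Ψ₀ (FreeGroup.mk L) = ψ (φ (FreeGroup.mk L)) := by
    intro L
    induction L with
    | nil =>
      intro _
      rw [← FreeGroup.one_eq_mk, map_one, map_one, hψ1]
    | cons y L ih =>
      intro hlen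
      have hL : L.length ≤ m := by
        rw [List.length_cons] at hlen
        omega
      have h1 : (FreeGroup.mk (y :: L) : FreeGroup (Fin n)) =
          FreeGroup.mk [y] * FreeGroup.mk L := by
        rw [FreeGroup.mul_mk]
        rfl
      have hy : Ψ₀ (FreeGroup.mk [y]) = ψ (φ (FreeGroup.mk [y])) := by
        obtain ⟨i, b⟩ := y
        cases b
        · have e : (FreeGroup.mk [(i, false)] : FreeGroup (Fin n)) = (FreeGroup.of i)⁻¹ := rfl
          rw [e, map_inv, hΨ₀, FreeGroup.lift_apply_of, map_inv]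
          have hg := hofE i
          have hg' : (φ (FreeGroup.of i))⁻¹ ∈ E := by
            have := hE [(i, false)] (by simpa using hm1)
            rwa [e, map_inv] at this
          have h3 := hmul _ hg' _ hg (by rw [inv_mul_cancel]; exact h1E)
          rw [inv_mul_cancel, hψ1] at h3
          exact (eq_inv_of_mul_eq_one_left h3.symm).symm
        · have e : (FreeGroup.mk [(i, true)] : FreeGroup (Fin n)) = FreeGroup.of i := rfl
          rw [e, hΨ₀, FreeGroup.lift_apply_of]
      rw [h1, map_mul, map_mul, hy, ih hL]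
      refine (hmul _ (hE [y] (by simpa using hm1)) _ (hE L hL) ?_).symm
      rw [← map_mul, ← h1]
      exact hE _ hlen
  have hRker' : ∀ r ∈ R, Ψ₀ r = 1 := by
    intro r hr
    have h2 := key (FreeGroup.toWord r) (hm r hr)
    rw [FreeGroup.mk_toWord] at h2
    have h3 : φ r = 1 := by
      have : r ∈ φ.ker := by
        rw [← hRker]
        exact Subgroup.subset_normalClosure hr
      exact MonoidHom.mem_ker.mp this
    rw [h2, h3, hψ1]
  have hker : φ.ker ≤ Ψ₀.ker := by
    rw [← hRker]
    exact Subgroup.normalClosure_le_normal (fun r hr => MonoidHom.mem_ker.mpr (hRker' r hr))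
  have hΨ : ∀ x, (φ.liftOfSurjective hφ ⟨Ψ₀, hker⟩) (φ x) = Ψ₀ x := fun x =>
    MonoidHom.liftOfRightInverse_comp_apply _ _ _ ⟨Ψ₀, hker⟩ x
  have hnontriv : ∃ i, φ (FreeGroup.of i) ≠ 1 := by
    by_contra hcon
    push Not at hcon
    have h2 : φ = 1 := FreeGroup.ext_hom _ _ (fun i => by rw [hcon i]; rfl)
    have h3 : ∀ g : G, g = 1 := by
      intro g
      obtain ⟨x, rfl⟩ := hφ g
      rw [h2]
      rfl
    obtain ⟨g, hg⟩ := exists_ne (1 : G)
    exact hg (h3 g)
  obtain ⟨i, hi⟩ := hnontriv
  have hΨi : (φ.liftOfSurjective hφ ⟨Ψ₀, hker⟩) (φ (FreeGroup.of i)) ≠ 1 := by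
    rw [hΨ, hΨ₀, FreeGroup.lift_apply_of]
    intro h
    apply hi
    apply hinj (hofE i) h1E
    rw [h, hψ1]
  have hkerΨ : (φ.liftOfSurjective hφ ⟨Ψ₀, hker⟩).ker = ⊥ := by
    rcases (MonoidHom.normal_ker (φ.liftOfSurjective hφ ⟨Ψ₀, hker⟩)).eq_bot_or_eq_top with h | h
    · exact h
    · exfalso
      apply hΨi
      rw [← MonoidHom.mem_ker, h]
      exact Subgroup.mem_top _
  exact ⟨A, instA, φ.liftOfSurjective hφ ⟨Ψ₀, hker⟩, hPA,
    (MonoidHom.ker_eq_bot_iff _).mp hkerΨ⟩

lemma fg_of_isFinitelyPresented (G : Type u) [Group G] [hfp : Group.IsFinitelyPresented G] :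
    Group.FG G := by
  obtain ⟨n, φ, hφ, _⟩ := hfp.out
  exact Group.fg_of_surjective hφ

/-- A finitely presented simple group which is locally embeddable into elementary amenable
groups is finite. -/
theorem finite_of_locally_embeddable (G : Type u) [Group G] [Group.IsFinitelyPresented G]
    [IsSimpleGroup G]
    (hloc : ∀ E : Finset G, ∃ (A : Type u) (_ : Group A) (ψ : G → A),
      IsElementaryAmenable A ∧ Set.InjOn ψ (E : Set G) ∧
        ∀ g ∈ E, ∀ h ∈ E, g * h ∈ E → ψ (g * h) = ψ g * ψ h) :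
    Finite G := by
  obtain ⟨A, instA, Ψ, hA, hΨ⟩ := exists_injective_hom_of_local
    (fun (A : Type u) [Group A] => IsElementaryAmenable A) hloc
  have hG : IsElementaryAmenable G := IsElementaryAmenable.of_injective Ψ hΨ hA
  have hfg : Group.FG G := fg_of_isFinitelyPresented G
  exact finite_of_fg_of_isSimpleGroup G hG

end Vale.Agent.H53.EA
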