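import Vale.Agent.H53.EA.Defs

/-!
# Finitely generated simple elementary amenable groups are finite (Chou)
-/

namespace Vale.Agent.H53.EA

universe u

/-- `SimpFin Q`: whenever a finitely generated group `Γ` maps to `Q`, every maximal normal
subgroup of `Γ` containing the kernel has finite index. -/
def SimpFin (Q : Type u) [Group Q] : Prop :=
  ∀ (Γ : Type u) [Group Γ] [Group.FG Γ] (α : Γ →* Q) (H : Subgroup Γ) [H.Normal],
    α.ker ≤ H → (∀ K : Subgroup Γ, K.Normal → H ≤ K → K = H ∨ K = ⊤) → H.FiniteIndex

lemma finite_of_fg_torsion_comm (Q : Type u) [Group Q] [Group.FG Q]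
    (hcomm : ∀ a b : Q, a * b = b * a) (htors : ∀ q : Q, ∃ k : ℕ, 0 < k ∧ q ^ k = 1) :
    Finite Q := by
  let _ : CommGroup Q := { (inferInstance : Group Q) with mul_comm := hcomm }
  apply CommGroup.finite_of_fg_isMulTorsion
  intro x
  rw [isOfFinOrder_iff_pow_eq_one]
  exact htors x

lemma range_comp_subtype {Γ G : Type u} [Group Γ] [Group G] (ρ : Γ →* G) (K : Subgroup Γ) :
    (ρ.comp K.subtype).range = K.map ρ := by
  ext x
  constructor
  · rintro ⟨y, rfl⟩
    exact ⟨y, y.2, rfl⟩
  · rintro ⟨y, hy, rfl⟩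
    exact ⟨⟨y, hy⟩, rfl⟩

lemma exists_lift {Γ G H : Type u} [Group Γ] [Group G] [Group H] [hfg : Group.FG Γ]
    (α : Γ →* H) (f : G →* H) (hf : Function.Surjective f) :
    ∃ P : Subgroup (Γ × G), P.FG ∧ P.map (MonoidHom.fst Γ G) = ⊤ ∧ ∀ p ∈ P, f p.2 = α p.1 := by
  classical
  obtain ⟨S, hS⟩ := Group.fg_def.mp hfg
  choose g hg using fun s : Γ => hf (α s)
  refine ⟨Subgroup.closure ((S.image (fun s => (s, g s)) : Finset (Γ × G)) : Set (Γ × G)),
    ⟨_, rfl⟩, ?_, ?_⟩
  · rw [MonoidHom.map_closure, Finset.coe_image, ← Set.image_comp]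
    have : (MonoidHom.fst Γ G) ∘ (fun s => (s, g s)) = id := by
      funext s; rfl
    rw [this, Set.image_id, hS]
  · intro p hp
    induction hp using Subgroup.closure_induction with
    | mem x hx =>
      rw [Finset.mem_coe, Finset.mem_image] at hx
      obtain ⟨s, _, rfl⟩ := hx
      exact hg s
    | one => simp
    | mul x y _ _ hx hy => simp [hx, hy]
    | inv x _ hx => simp [hx]

lemma conj_mem_sup {Γ : Type u} [Group Γ] (A B : Subgroup Γ) (n : Γ)
    (hA : ∀ a ∈ A, n * a * n⁻¹ ∈ A) (hB : ∀ b ∈ B, n * b * n⁻¹ ∈ B) :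
    ∀ l ∈ A ⊔ B, n * l * n⁻¹ ∈ A ⊔ B := by
  have hle : A ⊔ B ≤ (A ⊔ B).comap (MulAut.conj n).toMonoidHom := by
    refine sup_le ?_ ?_
    · intro a ha
      rw [Subgroup.mem_comap]
      exact Subgroup.mem_sup_left (hA a ha)
    · intro b hb
      rw [Subgroup.mem_comap]
      exact Subgroup.mem_sup_right (hB b hb)
  intro l hl
  have := hle hl
  rw [Subgroup.mem_comap] at this
  simpa [MulAut.conj_apply] using this

/-! ### The closure properties of `SimpFin` -/

theorem simpFin_of_finite (Q : Type u) [Group Q] [Finite Q] : SimpFin Q := by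
  intro Γ _ _ α H _ hle _
  exact Subgroup.finiteIndex_of_le hle

theorem simpFin_of_comm (Q : Type u) [Group Q] (hQ : ∀ a b : Q, a * b = b * a) : SimpFin Q := by
  intro Γ _ _ α H hHn hle hmax
  -- commutators lie in `H`
  have hcomm : ∀ x y : Γ, x * y * x⁻¹ * y⁻¹ ∈ H := by
    intro x y
    apply hle
    rw [MonoidHom.mem_ker]
    simp only [map_mul, map_inv]
    rw [hQ (α x) (α y)]
    simp
  -- every subgroup containing `H` is normal
  have hnormal : ∀ K : Subgroup Γ, H ≤ K → K.Normal := by
    intro K hK
    constructor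
    intro k hk g
    have h1 : g * k * g⁻¹ = (g * k * g⁻¹ * k⁻¹) * k := by group
    rw [h1]
    exact mul_mem (hK (hcomm g k)) hk
  -- the quotient is torsion
  have htors : ∀ x : Γ, ∃ k : ℕ, 0 < k ∧ x ^ k ∈ H := by
    intro x
    rcases hmax (H ⊔ Subgroup.zpowers (x ^ 2)) (hnormal _ le_sup_left) le_sup_left with h | h
    · refine ⟨2, by norm_num, ?_⟩
      rw [← h]
      exact Subgroup.mem_sup_right (Subgroup.mem_zpowers _)
    · have hx : x ∈ H ⊔ Subgroup.zpowers (x ^ 2) := by rw [h]; exact Subgroup.mem_top x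
      rw [← SetLike.mem_coe, Subgroup.normal_mul, Set.mem_mul] at hx
      obtain ⟨h', hh', z, hz, hxz⟩ := hx
      rw [SetLike.mem_coe, Subgroup.mem_zpowers_iff] at hz
      obtain ⟨j, rfl⟩ := hz
      have h3 : h' = x * ((x ^ 2) ^ j)⁻¹ := eq_mul_inv_of_mul_eq hxz
      have h2 : h' = x ^ (1 - 2 * j) := by
        rw [h3, zpow_sub, zpow_one, zpow_mul, zpow_ofNat]
      have h4 : x ^ (1 - 2 * j) ∈ H := h2 ▸ hh'
      have h5 : (1 - 2 * j : ℤ) ≠ 0 := by omega
      refine ⟨(1 - 2 * j).natAbs, Int.natAbs_pos.mpr h5, ?_⟩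
      rcases Int.natAbs_eq (1 - 2 * j) with h6 | h6
      · rw [← zpow_natCast, ← h6]; exact h4
      · have h7 : x ^ (-(1 - 2 * j)) ∈ H := by rw [zpow_neg]; exact inv_mem h4
        rw [← zpow_natCast]
        have h8 : (((1 - 2 * j).natAbs : ℕ) : ℤ) = -(1 - 2 * j) := by omega
        rw [h8]; exact h7
  have : Finite (Γ ⧸ H) := by
    apply finite_of_fg_torsion_comm
    · intro a b
      induction a using QuotientGroup.induction_on with
      | H x =>
        induction b using QuotientGroup.induction_on with
        | H y =>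
          rw [← QuotientGroup.mk_mul, ← QuotientGroup.mk_mul, QuotientGroup.eq]
          have h1 : (x * y)⁻¹ * (y * x) = y⁻¹ * x⁻¹ * y⁻¹⁻¹ * x⁻¹⁻¹ := by group
          rw [h1]
          exact hcomm _ _
    · intro q
      induction q using QuotientGroup.induction_on with
      | H x =>
        obtain ⟨k, hk, hx⟩ := htors x
        refine ⟨k, hk, ?_⟩
        rw [← QuotientGroup.mk_pow]
        exact (QuotientGroup.eq_one_iff _).mpr hx
  exact Subgroup.finiteIndex_of_finite_quotient

lemma SimpFin.of_injective {G H : Type u} [Group G] [Group H] (f : G →* H)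
    (hf : Function.Injective f) (hH : SimpFin H) : SimpFin G := by
  intro Γ _ _ α K _ hle hmax
  refine hH Γ (f.comp α) K (fun x hx => hle ?_) hmax
  rw [MonoidHom.mem_ker] at hx ⊢
  apply hf
  rw [map_one]
  exact hx

lemma SimpFin.of_surjective {G H : Type u} [Group G] [Group H] (f : G →* H)
    (hf : Function.Surjective f) (hG : SimpFin G) : SimpFin H := by
  intro Γ _ _ α K hKn hle hmax
  obtain ⟨P, hPfg, hPtop, hP⟩ := exists_lift α f hf
  have hfg : Group.FG P := (Group.fg_iff_subgroup_fg P).mpr hPfg
  have hsurj : Function.Surjective ((MonoidHom.fst Γ G).comp P.subtype) := by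
    rw [← MonoidHom.range_eq_top, range_comp_subtype, hPtop]
  have hker : ((MonoidHom.fst Γ G).comp P.subtype).ker ≤
      K.comap ((MonoidHom.fst Γ G).comp P.subtype) := by
    intro x hx
    rw [MonoidHom.mem_ker] at hx
    rw [Subgroup.mem_comap, hx]
    exact one_mem K
  have h1 := hG P ((MonoidHom.snd Γ G).comp P.subtype)
    (K.comap ((MonoidHom.fst Γ G).comp P.subtype)) (by
      intro x hx
      rw [MonoidHom.mem_ker] at hx
      have hx' : (x : Γ × G).2 = 1 := hx
      have h2 := hP x x.2
      rw [hx', map_one] at h2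
      rw [Subgroup.mem_comap]
      exact hle (MonoidHom.mem_ker.mpr h2.symm)) (by
      intro K' hK'n hle'
      have hK'ker : ((MonoidHom.fst Γ G).comp P.subtype).ker ≤ K' := hker.trans hle'
      have h4 : (K'.map ((MonoidHom.fst Γ G).comp P.subtype)).comap
          ((MonoidHom.fst Γ G).comp P.subtype) = K' := by
        rw [Subgroup.comap_map_eq]
        exact sup_eq_left.mpr hK'ker
      have h5 : K ≤ K'.map ((MonoidHom.fst Γ G).comp P.subtype) := by
        intro k hk
        obtain ⟨p, rfl⟩ := hsurj k
        exact Subgroup.mem_map_of_mem _ (hle' (Subgroup.mem_comap.mpr hk))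
      rcases hmax _ (hK'n.map _ hsurj) h5 with h6 | h6
      · left; rw [← h4, h6]
      · right; rw [← h4, h6, Subgroup.comap_top])
  constructor
  rw [← Subgroup.index_comap_of_surjective K hsurj]
  exact h1.index_ne_zero

lemma exists_index_of_fg {G Γ : Type u} [Group G] [Group Γ] [hfg : Group.FG Γ] (α : Γ →* G)
    {ι : Type u} [Nonempty ι] (H : ι → Subgroup G) (hdir : Directed (· ≤ ·) H)
    (hcover : ∀ g : G, ∃ i, g ∈ H i) : ∃ i, ∀ x : Γ, α x ∈ H i := by
  classical
  obtain ⟨S, hS⟩ := Group.fg_def.mp hfg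
  choose i hi using fun s : Γ => hcover (α s)
  obtain ⟨z, hz⟩ := hdir.finset_le (S.image i)
  refine ⟨z, fun x => ?_⟩
  have h1 : Subgroup.closure (S : Set Γ) ≤ (H z).comap α := by
    rw [Subgroup.closure_le]
    intro s hs
    rw [SetLike.mem_coe, Subgroup.mem_comap]
    exact hz (i s) (Finset.mem_image_of_mem i hs) (hi s)
  rw [hS] at h1
  exact h1 (Subgroup.mem_top x)

theorem simpFin_of_directed_union (G : Type u) [Group G] (ι : Type u) [Nonempty ι]
    (H : ι → Subgroup G) (hdir : Directed (· ≤ ·) H) (hcover : ∀ g : G, ∃ i, g ∈ H i)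
    (ih : ∀ i, SimpFin (H i)) : SimpFin G := by
  intro Γ _ _ α K _ hle hmax
  obtain ⟨i, hi⟩ := exists_index_of_fg α H hdir hcover
  refine ih i Γ (α.codRestrict (H i) hi) K (fun x hx => hle ?_) hmax
  rw [MonoidHom.mem_ker] at hx ⊢
  exact congrArg Subtype.val hx

theorem simpFin_of_extension (G : Type u) [Group G] (N : Subgroup G) [N.Normal]
    (hN : SimpFin N) (hQ : SimpFin (G ⧸ N)) : SimpFin G := by
  classical
  intro Γ _ hΓfg α H hHn hle hmax
  have hNn : (N.comap α).Normal := inferInstance
  rcases hmax (H ⊔ N.comap α) inferInstance le_sup_left with hK | hK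
  · have hNH : N.comap α ≤ H := by
      rw [← hK]; exact le_sup_right
    refine hQ Γ ((QuotientGroup.mk' N).comp α) H ?_ hmax
    intro x hx
    apply hNH
    rw [MonoidHom.mem_ker] at hx
    exact Subgroup.mem_comap.mpr ((QuotientGroup.eq_one_iff _).mp hx)
  · obtain ⟨S, hS⟩ := Group.fg_def.mp hΓfg
    have hdec : ∀ s : Γ, ∃ n : Γ, n ∈ N.comap α ∧ s * n⁻¹ ∈ H := by
      intro s
      have h2 : s ∈ H ⊔ N.comap α := by rw [hK]; exact Subgroup.mem_top s
      rw [← SetLike.mem_coe, Subgroup.mul_normal, Set.mem_mul] at h2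
      obtain ⟨h, hh, n, hn, rfl⟩ := h2
      exact ⟨n, hn, by simpa using hh⟩
    choose n hn hn' using hdec
    have hN₁le : Subgroup.closure ((S.image n : Finset Γ) : Set Γ) ≤ N.comap α := by
      rw [Subgroup.closure_le]
      intro x hx
      rw [Finset.mem_coe, Finset.mem_image] at hx
      obtain ⟨s, _, rfl⟩ := hx
      exact hn s
    have hfg : Group.FG (Subgroup.closure ((S.image n : Finset Γ) : Set Γ)) :=
      Group.closure_finset_fg _
    have htop : H ⊔ Subgroup.closure ((S.image n : Finset Γ) : Set Γ) = ⊤ := by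
      rw [eq_top_iff, ← hS, Subgroup.closure_le]
      intro s hs
      have h4 : s = (s * (n s)⁻¹) * n s := by group
      rw [SetLike.mem_coe, h4]
      refine mul_mem (Subgroup.mem_sup_left (hn' s)) (Subgroup.mem_sup_right
        (Subgroup.subset_closure ?_))
      rw [Finset.mem_coe]
      exact Finset.mem_image_of_mem n hs
    have h2 : (H.subgroupOf (Subgroup.closure ((S.image n : Finset Γ) : Set Γ))).FiniteIndex := by
      refine hN (Subgroup.closure ((S.image n : Finset Γ) : Set Γ))
        ((α.comp (Subgroup.closure ((S.image n : Finset Γ) : Set Γ)).subtype).codRestrict N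
          (fun x => hN₁le x.2))
        (H.subgroupOf (Subgroup.closure ((S.image n : Finset Γ) : Set Γ))) ?_ ?_
      · intro x hx
        rw [MonoidHom.mem_ker] at hx
        rw [Subgroup.mem_subgroupOf]
        apply hle
        rw [MonoidHom.mem_ker]
        exact congrArg Subtype.val hx
      · intro K' hK'n hle'
        -- the subgroup `H ⊔ K''` of `Γ` is normal
        have hKn : (H ⊔ K'.map (Subgroup.closure ((S.image n : Finset Γ) : Set Γ)).subtype).Normal
            := by
          have hconj : ∀ g : Γ, ∀ l ∈ H ⊔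
              K'.map (Subgroup.closure ((S.image n : Finset Γ) : Set Γ)).subtype,
              g * l * g⁻¹ ∈ H ⊔
              K'.map (Subgroup.closure ((S.image n : Finset Γ) : Set Γ)).subtype := by
            intro g
            have hg : g ∈ H ⊔ Subgroup.closure ((S.image n : Finset Γ) : Set Γ) := by
              rw [htop]; exact Subgroup.mem_top g
            rw [← SetLike.mem_coe, Subgroup.normal_mul, Set.mem_mul] at hg
            obtain ⟨h, hh, m, hm, rfl⟩ := hg
            intro l hl
            have h3 : m * l * m⁻¹ ∈ H ⊔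
                K'.map (Subgroup.closure ((S.image n : Finset Γ) : Set Γ)).subtype := by
              refine conj_mem_sup _ _ m (fun a ha => hHn.conj_mem a ha m) ?_ l hl
              rintro _ ⟨k, hk, rfl⟩
              exact ⟨⟨m, hm⟩ * k * ⟨m, hm⟩⁻¹, hK'n.conj_mem k hk ⟨m, hm⟩, rfl⟩
            have h4 : h * m * l * (h * m)⁻¹ = h * (m * l * m⁻¹) * h⁻¹ := by group
            rw [h4]
            exact mul_mem (mul_mem (Subgroup.mem_sup_left hh) h3)
              (Subgroup.mem_sup_left (inv_mem hh))
          exact ⟨fun l hl g => hconj g l hl⟩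
        rcases hmax _ hKn le_sup_left with h5 | h5
        · left
          refine le_antisymm ?_ hle'
          intro k hk
          rw [Subgroup.mem_subgroupOf]
          rw [← h5]
          exact Subgroup.mem_sup_right ⟨k, hk, rfl⟩
        · right
          rw [eq_top_iff]
          intro k _
          have h6 : (k : Γ) ∈ H ⊔
              K'.map (Subgroup.closure ((S.image n : Finset Γ) : Set Γ)).subtype := by
            rw [h5]; exact Subgroup.mem_top _
          rw [← SetLike.mem_coe, Subgroup.normal_mul, Set.mem_mul] at h6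
          obtain ⟨h, hh, _, ⟨k', hk', rfl⟩, hhk⟩ := h6
          have h7 : h = (k * k'⁻¹ : Subgroup.closure ((S.image n : Finset Γ) : Set Γ)) := by
            have : h = (k : Γ) * (k' : Γ)⁻¹ := by
              rw [← hhk]; simp
            rw [this]; simp
          have h8 : k * k'⁻¹ ∈ K' := by
            apply hle'
            rw [Subgroup.mem_subgroupOf, ← h7]
            exact hh
          have h9 : k = (k * k'⁻¹) * k' := by group
          rw [h9]
          exact mul_mem h8 hk'
    constructor
    rw [← Subgroup.relIndex_mul_index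
      (le_sup_left : H ≤ H ⊔ Subgroup.closure ((S.image n : Finset Γ) : Set Γ)),
      Subgroup.relIndex_sup_left, htop, Subgroup.index_top, mul_one]
    exact h2.index_ne_zero

/-! ### Chou's theorem -/

theorem simpFin_of_isElementaryAmenable (Q : Type u) [Group Q]
    (hQ : IsElementaryAmenable Q) : SimpFin Q := by
  induction hQ with
  | of_finite G => exact simpFin_of_finite G
  | of_comm G h => exact simpFin_of_comm G h
  | of_injective f hf _ ih => exact ih.of_injective f hf
  | of_surjective f hf _ ih => exact ih.of_surjective f hf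
  | of_extension G N _ _ ih1 ih2 => exact simpFin_of_extension G N ih1 ih2
  | of_directed_union G ι H hdir hcover _ ih =>
    exact simpFin_of_directed_union G ι H hdir hcover ih

/-- **Chou's theorem.** A finitely generated simple elementary amenable group is finite. -/
theorem finite_of_fg_of_isSimpleGroup (G : Type u) [Group G] [Group.FG G] [IsSimpleGroup G]
    (hG : IsElementaryAmenable G) : Finite G := by
  have h1 : (⊥ : Subgroup G).FiniteIndex :=
    simpFin_of_isElementaryAmenable G hG G (MonoidHom.id G) ⊥ (by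
      intro x hx
      rw [MonoidHom.mem_ker, MonoidHom.id_apply] at hx
      rw [hx]; exact one_mem _) (by
      intro K hK _
      exact hK.eq_bot_or_eq_top)
  apply Nat.finite_of_card_ne_zero
  rw [← Subgroup.index_bot]
  exact h1.index_ne_zero

end Vale.Agent.H53.EA
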